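import Vale.Agent.P030.H579.TwGlue
import Vale.Agent.P030.H486.Wd

/-!
# P030, the 2-adic place: the column operation at `c1`

For `k < ht wf7 * s + c0` the columns `wy, w8, wab, wf7` of order `k` are integral combinations of
`P_6, w8, wab, P_7 - P_6` of the same order.  So `StTW` needs entry bounds only for these.
-/

open Finset Matrix

namespace Vale.Agent.P030.H622

open Vale.Agent.P030.T

section abs

variable {K : Type*} [NormedField K] [IsUltrametricDist K]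
variable {n : Type*} [Fintype n] [DecidableEq n]

/-- integral combinations of the columns of a family: one choice of family columns has a
determinant which is at least as large -/
theorem exists_family {E : Type*} [Fintype E] [DecidableEq E]
    (M : Matrix n n K) (N : Matrix n E K) (P : Matrix E n K) (hM : M = N * P)
    (hP : ∀ i j, ‖P i j‖ ≤ 1) (τ0 : n → E) (h0 : Function.Injective τ0) :
    ∃ τ : n → E, Function.Injective τ ∧ ‖M.det‖ ≤ ‖(N.submatrix id τ).det‖ := by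
  classical
  obtain ⟨τ, hτ, hmax⟩ := Finset.exists_max_image
    (Finset.univ.filter fun τ : n → E => Function.Injective τ)
    (fun τ => ‖(N.submatrix id τ).det‖) ⟨τ0, by simpa using h0⟩
  refine ⟨τ, (Finset.mem_filter.1 hτ).2, ?_⟩
  exact H914.det_norm_le_of_cols M N P hM hP _ (norm_nonneg _) fun τ' hτ' =>
    hmax τ' (by simpa using hτ')

end abs

/-- the coefficients of the old columns in the new ones (`H` = number of orders changed) -/
noncomputable def cf (H : ℕ) (e c : Cl) : ℚ_[2] :=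
  match c with
  | (.wf7, k) => (if e = (.wy, k) then 1 else 0) + (if e = (.wf7, k) then 1 else 0)
  | (.wy, k) =>
      if k < H then
        (if e = (.wy, k) then -(4 / 3) else 0) + ((if e = (.wab, k) then -(4 / 3) else 0)
          + (if e = (.w8, k) then -1 else 0))
      else if e = (.wy, k) then 1 else 0
  | c => if e = c then 1 else 0

theorem norm_four_thirds : ‖(-(4 / 3) : ℚ_[2])‖ ≤ 1 := by
  rw [norm_neg, norm_div]
  have h3 : ‖(3 : ℚ_[2])‖ = 1 := by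
    have := (Padic.norm_natCast_eq_one_iff (p := 2) (n := 3)).2 (by norm_num)
    exact_mod_cast this
  have h4 : ‖(4 : ℚ_[2])‖ ≤ 1 := by
    have := Padic.norm_int_le_one (p := 2) 4
    exact_mod_cast this
  rw [h3, div_one]
  exact h4

theorem cf_le (H : ℕ) (e c : Cl) : ‖cf H e c‖ ≤ 1 := by
  have h1 : ∀ (q : Prop) [Decidable q] (a : ℚ_[2]), ‖a‖ ≤ 1 → ‖(if q then a else 0)‖ ≤ 1 := by
    intro q _ a ha
    split_ifs <;> simp [ha]
  have hadd : ∀ a b : ℚ_[2], ‖a‖ ≤ 1 → ‖b‖ ≤ 1 → ‖a + b‖ ≤ 1 := fun a b ha hb =>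
    (IsUltrametricDist.norm_add_le_max a b).trans (max_le ha hb)
  have e1 : ‖(1 : ℚ_[2])‖ ≤ 1 := by simp
  have em1 : ‖(-1 : ℚ_[2])‖ ≤ 1 := by simp
  obtain ⟨g, k⟩ := c
  cases g
  case wf7 => exact hadd _ _ (h1 _ _ e1) (h1 _ _ e1)
  case wy =>
    unfold cf
    by_cases hk : k < H
    · simp only [hk, if_true]
      exact hadd _ _ (h1 _ _ norm_four_thirds) (hadd _ _ (h1 _ _ norm_four_thirds) (h1 _ _ em1))
    · simp only [hk, if_false]
      exact h1 _ _ e1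
  all_goals exact h1 _ _ e1

/-! ### the entries -/

section ent

variable {P : Par} {c0 s : ℕ}

/-- entry of the column `P_6` (order `k`) at `c1` -/
noncomputable def e6 (D k : ℕ) (r : Fin D × Fin 8) : ℚ :=
  PowerSeries.coeff k (mon D 1 r.1 * H486.t6 r.2)

/-- entry of the column `P_7 - P_6` (order `k`) at `c1` -/
noncomputable def ed (D k : ℕ) (r : Fin D × Fin 8) : ℚ :=
  PowerSeries.coeff k (mon D 1 r.1 * H486.td r.2)

theorem En_wf7 (D : ℕ) (x : ℚ) (r : Fin D × Fin 8) (k : ℕ) :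
    En D x r (.wf7, k) = e6 D k r + ed D k r := by
  have h : tup0 .wf7 r.2 = H486.t6 r.2 + H486.td r.2 := by rw [H486.wf7_eq]; rfl
  simp [En, ent0, ent1, e6, ed, Gp.cusp, tup1, h, mul_add]

theorem En_wy (D : ℕ) (x : ℚ) (r : Fin D × Fin 8) (k : ℕ) :
    En D x r (.wy, k) = -(4 / 3) * (En D x r (.wab, k) + e6 D k r) - En D x r (.w8, k) := by
  have h : tup0 .wy r.2 = (-(4 / 3) : ℚ) • (tup0 .wab r.2 + H486.t6 r.2)
      + (-1 : ℚ) • tup0 .w8 r.2 := by rw [H486.wy_eq]; rfl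
  simp only [En, ent0, ent1, e6, Gp.cusp, tup1, h, mul_add, mul_smul_comm, map_add, map_smul,
    smul_eq_mul, mul_zero, map_zero, add_zero, eq_ratCast, Rat.cast_id]
  ring

/-- the new columns -/
noncomputable def Fe (D : ℕ) (x : ℚ) (H : ℕ) (r : Fin D × Fin 8) (c : Cl) : ℚ :=
  match c with
  | (.wf7, k) => ed D k r
  | (.wy, k) => if k < H then e6 D k r else En D x r (.wy, k)
  | c => En D x r c

theorem sum_ind (S : Finset Cl) (f : Cl → ℚ_[2]) {q : Cl} (hq : q ∈ S) (a : ℚ_[2]) :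
    ∑ e ∈ S, f e * (if e = q then a else 0) = f q * a := by
  simp [mul_ite, Finset.sum_ite_eq', hq]

theorem Fe_cf (hw8 : P.ht .w8 = P.ht .wf7) (hwab : P.ht .wab = P.ht .wf7)
    (hwy : P.ht .wf7 ≤ P.ht .wy) (D : ℕ) (x : ℚ) (r : Fin D × Fin 8) (c : Cl)
    (hc : c ∈ pool P c0 s) :
    ∑ e ∈ pool P c0 s, ((Fe D x (P.ht .wf7 * s + c0) r e : ℚ) : ℚ_[2])
      * cf (P.ht .wf7 * s + c0) e c = ((En D x r c : ℚ) : ℚ_[2]) := by
  obtain ⟨g, k⟩ := c
  have hk : k < P.ht g * s + c0 := mem_pool.1 hc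
  cases g
  case wf7 =>
    have h1 : ((.wy, k) : Cl) ∈ pool P c0 s := mem_pool.2 (by
      have := Nat.mul_le_mul_right s hwy
      show k < P.ht .wy * s + c0
      omega)
    simp only [cf, mul_add, Finset.sum_add_distrib]
    rw [sum_ind _ _ h1, sum_ind _ _ hc]
    simp only [Fe, hk, if_true, mul_one]
    rw [En_wf7]
    push_cast
    rfl
  case wy =>
    by_cases hkH : k < P.ht .wf7 * s + c0
    · have h1 : ((.wab, k) : Cl) ∈ pool P c0 s := mem_pool.2 (by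
        show k < P.ht .wab * s + c0
        rw [hwab]; exact hkH)
      have h2 : ((.w8, k) : Cl) ∈ pool P c0 s := mem_pool.2 (by
        show k < P.ht .w8 * s + c0
        rw [hw8]; exact hkH)
      simp only [cf, hkH, if_true, mul_add, Finset.sum_add_distrib]
      rw [sum_ind _ _ hc, sum_ind _ _ h1, sum_ind _ _ h2]
      simp only [Fe, hkH, if_true]
      rw [En_wy]
      push_cast
      ring
    · simp only [cf, hkH, if_false]
      rw [sum_ind _ _ hc]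
      simp only [Fe, hkH, if_false, mul_one]
  all_goals
    simp only [cf]
    rw [sum_ind _ _ hc]
    simp only [Fe, mul_one]

/-- **the bound for one `s`, with the family columns** -/
theorem norm_det_le_of_family (hw8 : P.ht .w8 = P.ht .wf7) (hwab : P.ht .wab = P.ht .wf7)
    (hwy : P.ht .wf7 ≤ P.ht .wy) {x : ℚ}
    {σ : Fin (P.D0 * s) × Fin 8 → Cl} (hσ : Adm P c0 s σ)
    (U : Matrix (Fin (P.D0 * s) × Fin 8) (Fin (P.D0 * s) × Fin 8) ℚ_[2]) {u : ℝ}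
    (hU : (2 : ℝ) ^ (-u) ≤ ‖U.det‖) (α : Fin (P.D0 * s) × Fin 8 → ℝ) (β : Cl → ℝ)
    (h : ∀ c : Cl, c.2 < P.ht c.1 * s + c0 → ∀ r,
      ‖∑ r', U r r' * ((Fe (P.D0 * s) x (P.ht .wf7 * s + c0) r' c : ℚ) : ℚ_[2])‖
        ≤ (2 : ℝ) ^ (α r + β c)) :
    ∃ τ, Adm P c0 s τ ∧ ‖(((Mx (P.D0 * s) x σ).det : ℚ) : ℚ_[2])‖ ≤
      (2 : ℝ) ^ (u + ∑ r, α r + ∑ r, β (τ r)) := by
  classical
  have h2 : (0 : ℝ) < 2 := two_pos
  set H := P.ht .wf7 * s + c0 with hH
  set N : Matrix (Fin (P.D0 * s) × Fin 8) (Fin (P.D0 * s) × Fin 8) ℚ_[2] :=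
    (Mx (P.D0 * s) x σ).map (algebraMap ℚ ℚ_[2]) with hN
  have h1 : ((((Mx (P.D0 * s) x σ).det : ℚ) : ℚ_[2])) = N.det := by
    rw [hN, ← RingHom.mapMatrix_apply, ← RingHom.map_det]
    rfl
  set F : Matrix (Fin (P.D0 * s) × Fin 8) {c // c ∈ pool P c0 s} ℚ_[2] :=
    Matrix.of fun r e => ((Fe (P.D0 * s) x H r e.1 : ℚ) : ℚ_[2]) with hF
  set Q : Matrix {c // c ∈ pool P c0 s} (Fin (P.D0 * s) × Fin 8) ℚ_[2] :=
    Matrix.of fun e a => cf H e.1 (σ a) with hQ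
  have hNF : N = F * Q := by
    ext r a
    rw [Matrix.mul_apply]
    have e1 := Fe_cf hw8 hwab hwy (P.D0 * s) x r (σ a) (mem_pool.2 (hσ.2 a))
    rw [← Finset.sum_coe_sort] at e1
    exact e1.symm
  obtain ⟨τ, hτ, hle⟩ := exists_family (U * N) (U * F) Q (by rw [hNF, Matrix.mul_assoc])
    (fun e a => cf_le H e.1 (σ a)) (fun a => ⟨σ a, mem_pool.2 (hσ.2 a)⟩)
    (fun a b hab => hσ.1 (congrArg Subtype.val hab))
  refine ⟨fun a => (τ a).1, ⟨fun a b hab => hτ (Subtype.ext hab),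
    fun a => mem_pool.1 (τ a).2⟩, ?_⟩
  have h3 : ‖((U * F).submatrix id τ).det‖
      ≤ (∏ r, (2 : ℝ) ^ α r) * ∏ r, (2 : ℝ) ^ β (τ r).1 := by
    refine H914.det_norm_le _ _ _ (fun _ => (Real.rpow_pos_of_pos h2 _).le)
      (fun _ => (Real.rpow_pos_of_pos h2 _).le) fun i j => ?_
    rw [← Real.rpow_add h2]
    exact h (τ j).1 (mem_pool.1 (τ j).2) i
  rw [← Real.rpow_sum_of_pos h2, ← Real.rpow_sum_of_pos h2, ← Real.rpow_add h2] at h3
  have h3' := hle.trans h3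
  rw [Matrix.det_mul, norm_mul] at h3'
  have h4 : (2 : ℝ) ^ (-u) * ‖N.det‖ ≤ (2 : ℝ) ^ (∑ r, α r + ∑ r, β (τ r).1) :=
    (mul_le_mul_of_nonneg_right hU (norm_nonneg _)).trans h3'
  rw [h1, add_assoc, Real.rpow_add h2 u]
  have h5 : (0 : ℝ) < (2 : ℝ) ^ u := Real.rpow_pos_of_pos h2 _
  have h6 : (2 : ℝ) ^ u * (2 : ℝ) ^ (-u) = 1 := by
    rw [← Real.rpow_add h2, add_neg_cancel, Real.rpow_zero]
  calc ‖N.det‖ = (2 : ℝ) ^ u * ((2 : ℝ) ^ (-u) * ‖N.det‖) := by rw [← mul_assoc, h6, one_mul]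
    _ ≤ _ := mul_le_mul_of_nonneg_left h4 h5.le

end ent

open H579

/-- **StTW from a product form certificate**, one other choice of columns allowed -/
theorem stTW_of_pl_w {P : Par} {c0 : ℕ} (hcard : ∑ g : Gp, P.ht g = 8 * P.D0) (u : ℚ)
    (a : Fin 8 → PL) (b : Gp → PL) (ha : ∀ j, (a j).ok 0 P.D0) (hb : ∀ g, (b g).ok 0 (P.ht g))
    (h : ∀ x : ℚ, ∀ η : ℝ, 0 < η → ∃ s0 : ℕ, ∀ s, s0 ≤ s → ∀ σ, Adm P c0 s σ →
      (Mx (P.D0 * s) x σ).det ≠ 0 → ∃ τ, Adm P c0 s τ ∧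
      ‖(((Mx (P.D0 * s) x σ).det : ℚ) : ℚ_[2])‖ ≤
        (2 : ℝ) ^ ((u + η) * (s : ℝ) ^ 2 + ∑ r, rowPot a (P.D0 * s) s r
          + ∑ r, colPot b s (τ r))) :
    StTW P c0 (tot P u a b * Real.log 2) := by
  refine stTW_of_norm fun x ε hε => ?_
  obtain ⟨s0, h0⟩ := h x (ε / 2) (by linarith)
  obtain ⟨C1, hC1, h1⟩ := sum_rowPot a P.D0 ha
  obtain ⟨C2, hC2, h2⟩ := sum_colPot (c0 := c0) hcard b hb
  obtain ⟨s1, hs1⟩ := exists_nat_ge ((C1 + C2) / (ε / 2))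
  refine ⟨max (max s0 s1) 1, fun s hs σ hσ hd => ?_⟩
  have hs0' : s0 ≤ s := le_trans (le_trans (le_max_left _ _) (le_max_left _ _)) hs
  have hs1' : s1 ≤ s := le_trans (le_trans (le_max_right _ _) (le_max_left _ _)) hs
  have hs2 : 1 ≤ s := le_trans (le_max_right _ _) hs
  obtain ⟨τ, hτ, hle⟩ := h0 s hs0' σ hσ hd
  refine hle.trans ?_
  refine Real.rpow_le_rpow_of_exponent_le one_le_two ?_
  have h3 := h1 s hs2
  have h4 := h2 s hs2 τ hτ
  have h5 : (C1 + C2) ≤ ε / 2 * s := by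
    have h6 : (C1 + C2) / (ε / 2) ≤ s := hs1.trans (by exact_mod_cast hs1')
    rw [div_le_iff₀ (by linarith)] at h6
    linarith
  have hs3 : (0 : ℝ) ≤ s := Nat.cast_nonneg _
  have h7 : (C1 + C2) * s ≤ ε / 2 * s * s := mul_le_mul_of_nonneg_right h5 hs3
  have e1 : (tot P u a b : ℝ) = u + ((∑ j, (a j).area 0 P.D0 : ℚ) : ℝ)
      + ((∑ g, (b g).area 0 (P.ht g) : ℚ) : ℝ) := by
    unfold tot; push_cast; ring
  rw [e1]
  nlinarith

/-- **StTW from entry bounds for the family columns**: as `H579.stTW_of_entries`, but the entry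
bounds are for `Fe`: the column `wf7` of order `k` is replaced by `P_7 - P_6`, the column `wy` of
order `k < ht wf7 * s + c0` by `P_6`. -/
theorem stTW_of_entries_w {P : Par} {c0 : ℕ} (hw8 : P.ht .w8 = P.ht .wf7)
    (hwab : P.ht .wab = P.ht .wf7) (hwy : P.ht .wf7 ≤ P.ht .wy)
    (hcard : ∑ g : Gp, P.ht g = 8 * P.D0) (u : ℚ)
    (a : Fin 8 → PL) (b : Gp → PL) (ha : ∀ j, (a j).ok 0 P.D0) (hb : ∀ g, (b g).ok 0 (P.ht g))
    (h : ∀ x : ℚ, ∀ η : ℝ, 0 < η → ∃ s0 : ℕ, ∀ s, s0 ≤ s →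
      ∃ U : Matrix (Fin (P.D0 * s) × Fin 8) (Fin (P.D0 * s) × Fin 8) ℚ_[2],
        (2 : ℝ) ^ (-((u + η) * (s : ℝ) ^ 2)) ≤ ‖U.det‖ ∧
        ∀ c : Cl, c.2 < P.ht c.1 * s + c0 → ∀ r,
          ‖∑ r', U r r' * ((Fe (P.D0 * s) x (P.ht .wf7 * s + c0) r' c : ℚ) : ℚ_[2])‖
            ≤ (2 : ℝ) ^ (rowPot a (P.D0 * s) s r + colPot b s c + η * s)) :
    StTW P c0 (tot P u a b * Real.log 2) := by
  refine stTW_of_pl_w hcard u a b ha hb fun x η hη => ?_
  have hz : (0 : ℝ) < 8 * (P.D0 : ℝ) + 1 := by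
    have := Nat.cast_nonneg (α := ℝ) P.D0
    linarith
  obtain ⟨ζ, hζ⟩ : ∃ ζ : ℝ, ζ = η / (8 * (P.D0 : ℝ) + 1) := ⟨_, rfl⟩
  have hζ0 : 0 < ζ := by rw [hζ]; exact div_pos hη hz
  obtain ⟨s0, h0⟩ := h x ζ hζ0
  refine ⟨s0, fun s hs σ hσ _ => ?_⟩
  obtain ⟨U, hU, hE⟩ := h0 s hs
  obtain ⟨τ, hτ, key⟩ := norm_det_le_of_family hw8 hwab hwy hσ U hU
    (fun r => rowPot a (P.D0 * s) s r + ζ * s) (colPot b s) (by
      intro c hc r
      have h1 := hE c hc r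
      have e0 : rowPot a (P.D0 * s) s r + ζ * s + colPot b s c
          = rowPot a (P.D0 * s) s r + colPot b s c + ζ * s := by ring
      rw [e0]
      exact h1)
  refine ⟨τ, hτ, key.trans (Real.rpow_le_rpow_of_exponent_le one_le_two (le_of_eq ?_))⟩
  have e1 : ζ * (8 * (P.D0 : ℝ) + 1) = η := by rw [hζ, div_mul_cancel₀ _ hz.ne']
  have e3 : ∑ r : Fin (P.D0 * s) × Fin 8, (rowPot a (P.D0 * s) s r + ζ * s)
      = ∑ r, rowPot a (P.D0 * s) s r + (P.D0 * s * 8 : ℝ) * (ζ * s) := by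
    rw [Finset.sum_add_distrib, Finset.sum_const, Finset.card_univ, Fintype.card_prod,
      Fintype.card_fin, Fintype.card_fin, nsmul_eq_mul]
    push_cast
    ring
  rw [e3, ← e1]
  ring

end Vale.Agent.P030.H622
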