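import Vale.Agent.P030.H622.ColC1
import Vale.Agent.P030.H579.DesA

/-!
# P030, the 2-adic certificate of design A after the column operation at `c1`: total `13951/4`.
-/

open Finset

namespace Vale.Agent.P030.H622

open Vale.Agent.P030.T H579

/-- column potentials of design A after the column operation at `c1` (`wf7` = `P_7 - P_6`) -/
def colAw : Gp → PL
  | .wf7 => .last 32 0
  | g => colA g

theorem colAw_ok : ∀ g, (colAw g).ok 0 (parA.ht g) := by
  intro g
  cases g <;> simp [colAw, colA, PL.ok, parA] <;> norm_num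

theorem totAw : tot parA (735 / 4) rowA colAw = 13951 / 4 := by
  unfold tot
  rw [sum_Gp, Fin.sum_univ_eight]
  simp [rowA, colAw, colA, PL.area, parA]
  norm_num

/-- **StTW for design A from entry bounds for the family columns** -/
theorem stTW_Aw {c0 : ℕ}
    (h : ∀ x : ℚ, ∀ η : ℝ, 0 < η → ∃ s0 : ℕ, ∀ s, s0 ≤ s →
      ∃ U : Matrix (Fin (parA.D0 * s) × Fin 8) (Fin (parA.D0 * s) × Fin 8) ℚ_[2],
        (2 : ℝ) ^ (-((((735 / 4 : ℚ) : ℝ) + η) * (s : ℝ) ^ 2)) ≤ ‖U.det‖ ∧
        ∀ c : Cl, c.2 < parA.ht c.1 * s + c0 → ∀ r,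
          ‖∑ r', U r r' * ((Fe (parA.D0 * s) x (parA.ht .wf7 * s + c0) r' c : ℚ) : ℚ_[2])‖
            ≤ (2 : ℝ) ^ (rowPot rowA (parA.D0 * s) s r + colPot colAw s c + η * s)) :
    StTW parA c0 (((13951 / 4 : ℚ) : ℝ) * Real.log 2) := by
  have := stTW_of_entries_w (P := parA) (c0 := c0) rfl rfl (by decide) parA_card (735 / 4) rowA
    colAw rowA_ok colAw_ok h
  rwa [totAw] at this

end Vale.Agent.P030.H622
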